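import Vale.Agent.P088.R2.H165.Tab
import Vale.Agent.P088.R2.H509.E.PT
import Vale.Agent.P088.R2.H710.E.PP

/-!
# P088, stage 3, EST': continuity of the coefficients of all margins and costs

`glue_zone` of helper338 needs `((M k).sm (χ_k ^ 2)).Ct univ` and `(co k).Ct univ`. Margins and
costs which are continuous only on an open set `Ω` are multiplied by functions with support in `Ω`
(`ct_supp`).
-/

open MeasureTheory Set Filter
open scoped ContDiff Topology

set_option linter.unusedSectionVars false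

noncomputable section

namespace Vale.Agent.P088.R2.H341.EP

open Vale.Agent.P088.R2.H961.GW Vale.Agent.P088.R2.H960.W Vale.Agent.P088.R2.H644
open Vale.Agent.P088.R2.H551.E Vale.Agent.P088.R2.H165.Tab Vale.Agent.P088.R2.H747.SW
open Vale.Agent.P088.R2.H509.PT Vale.Agent.P088.R2.H710

variable {E ι : Type*} [NormedAddCommGroup E] [NormedSpace ℝ E] [Fintype ι]
  {U Ω : Set E} {f g : E → ℝ} {p q : Q8 E}

/-! ### Products with small support -/

/-- `f` is continuous on `U`, `g` on `Ω`, and the support of `f` in `U` lies in `Ω`. -/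
theorem c_supp (hU : IsOpen U) (hΩ : IsOpen Ω) (hf : ContinuousOn f U) (hg : ContinuousOn g Ω)
    (hs : U ∩ tsupport f ⊆ Ω) : ContinuousOn (fun z => f z * g z) U := by
  intro z hz
  by_cases h : z ∈ tsupport f
  · have h1 := hf.continuousAt (hU.mem_nhds hz)
    have h2 := hg.continuousAt (hΩ.mem_nhds (hs ⟨hz, h⟩))
    exact (h1.mul h2).continuousWithinAt
  · have : (fun z => f z * g z) =ᶠ[𝓝 z] fun _ => (0 : ℝ) := by
      filter_upwards [(isClosed_tsupport f).isOpen_compl.mem_nhds h] with w hw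
      rw [image_eq_zero_of_notMem_tsupport hw, zero_mul]
    exact (continuousAt_const.congr this.symm).continuousWithinAt

/-- The same with a square. -/
theorem supp_sq (f : E → ℝ) : tsupport (fun z => f z ^ 2) ⊆ tsupport f :=
  closure_mono fun z hz h => hz (by simp [h])

theorem supp_mul (f g : E → ℝ) : tsupport (fun z => f z * g z) ⊆ tsupport f :=
  closure_mono fun z hz h => hz (by simp [h])

/-- A function which vanishes where `f` vanishes identically near the point. -/
theorem supp_of {f h : E → ℝ} (h0 : ∀ z, z ∉ tsupport f → h z = 0) : tsupport h ⊆ tsupport f := by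
  refine closure_minimal (fun z hz => ?_) (isClosed_tsupport f)
  by_contra hc
  exact hz (h0 z hc)

namespace Q8

theorem Ct.mono (h : q.Ct U) (hs : Ω ⊆ U) : q.Ct Ω :=
  ⟨h.κ.mono hs, h.ζ₁.mono hs, h.ζ₂.mono hs, h.ζy.mono hs, h.w₁.mono hs, h.w₂.mono hs,
    h.wb.mono hs, h.wc.mono hs⟩

theorem Ct.add (h : p.Ct U) (h' : q.Ct U) : (p + q).Ct U :=
  ⟨h.κ.add h'.κ, h.ζ₁.add h'.ζ₁, h.ζ₂.add h'.ζ₂, h.ζy.add h'.ζy, h.w₁.add h'.w₁,
    h.w₂.add h'.w₂, h.wb.add h'.wb, h.wc.add h'.wc⟩

theorem Ct.zero : (0 : Q8 E).Ct U :=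
  ⟨continuousOn_const, continuousOn_const, continuousOn_const, continuousOn_const,
    continuousOn_const, continuousOn_const, continuousOn_const, continuousOn_const⟩

/-- **A margin with a cut-off.** -/
theorem Ct.supp (hU : IsOpen U) (hΩ : IsOpen Ω) (hf : ContinuousOn f U) (hq : q.Ct Ω)
    (hs : U ∩ tsupport f ⊆ Ω) : (Q8.sm f q).Ct U :=
  ⟨c_supp hU hΩ hf hq.κ hs, c_supp hU hΩ hf hq.ζ₁ hs, c_supp hU hΩ hf hq.ζ₂ hs,
    c_supp hU hΩ hf hq.ζy hs, c_supp hU hΩ hf hq.w₁ hs, c_supp hU hΩ hf hq.w₂ hs,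
    c_supp hU hΩ hf hq.wb hs, c_supp hU hΩ hf hq.wc hs⟩

/-- The same with the square of the cut-off. -/
theorem Ct.supp2 (hU : IsOpen U) (hΩ : IsOpen Ω) (hf : ContinuousOn f U) (hq : q.Ct Ω)
    (hs : U ∩ tsupport f ⊆ Ω) : (Q8.sm (fun z => f z ^ 2) q).Ct U :=
  Ct.supp hU hΩ (hf.pow 2) hq fun _ hz => hs ⟨hz.1, supp_sq f hz.2⟩

theorem Ct.sm (hf : ContinuousOn f U) (hq : q.Ct U) : (Q8.sm f q).Ct U :=
  H338.E.ct_sm hf hq

end Q8

/-! ### The numbers -/

/-- Continuity of the numbers of a point. -/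
structure NuCt (ν : Nu E) (U : Set E) : Prop where
  En : ContinuousOn ν.En U
  N : ContinuousOn ν.N U
  K : ContinuousOn ν.K U
  r2 : ContinuousOn ν.r2 U
  m : ContinuousOn ν.m U
  k : ContinuousOn ν.k U
  F₁ : ContinuousOn ν.F₁ U
  F₂ : ContinuousOn ν.F₂ U
  E0 : ∀ z ∈ U, 0 < ν.En z
  m0 : ∀ z ∈ U, 0 ≤ ν.m z

section tab

variable {ν : Nu E} {c C s : ℝ} {Z Zq Zp : E → ℝ}

theorem NuCt.mono (h : NuCt ν U) (hs : Ω ⊆ U) : NuCt ν Ω :=
  ⟨h.En.mono hs, h.N.mono hs, h.K.mono hs, h.r2.mono hs, h.m.mono hs, h.k.mono hs, h.F₁.mono hs,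
    h.F₂.mono hs, fun z hz => h.E0 z (hs hz), fun z hz => h.m0 z (hs hz)⟩

theorem ct_wI (h : NuCt ν U) : ContinuousOn ν.wI U := by
  unfold Nu.wI
  refine ((h.N.pow 2).mul (h.En.pow 2)).div ((h.En.mul (continuousOn_const.add h.m)).add
    (h.N.pow 2)) fun z hz => ?_
  have h1 := h.E0 z hz
  have h2 := h.m0 z hz
  positivity

theorem ct_wB (h : NuCt ν U) : ContinuousOn ν.wB U := by
  unfold Nu.wB
  refine (h.En.mul (((h.N.add continuousOn_const).add h.m).pow 2)).div
    (continuousOn_const.add h.m) fun z hz => ?_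
  have h2 := h.m0 z hz
  positivity

theorem ct_M0 (h : NuCt ν U) : (M0 ν c s).Ct U where
  κ := continuousOn_const
  ζ₁ := continuousOn_const.mul (h.En.add (continuousOn_const.mul h.N))
  ζ₂ := continuousOn_const.mul (h.En.add (continuousOn_const.mul h.N))
  ζy := continuousOn_const.mul h.En
  w₁ := continuousOn_const.mul ((h.En.add (continuousOn_const.mul h.N)).mul (h.N.pow 2))
  w₂ := continuousOn_const.mul ((h.En.add (continuousOn_const.mul h.N)).mul (h.N.pow 2))
  wb := continuousOn_const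
  wc := continuousOn_const

theorem ct_MI (h : NuCt ν U) : (MI ν c).Ct U where
  κ := continuousOn_const
  ζ₁ := continuousOn_const
  ζ₂ := continuousOn_const
  ζy := continuousOn_const.mul h.En
  w₁ := continuousOn_const.mul h.F₁
  w₂ := continuousOn_const.mul h.F₂
  wb := continuousOn_const.mul (h.En.pow 2)
  wc := continuousOn_const.mul (ct_wI h)

theorem ct_MII (h : NuCt ν U) (h0 : ∀ z ∈ U, ν.r2 z ≠ 0) : (MII ν).Ct U where
  κ := continuousOn_const
  ζ₁ := continuousOn_const.mul h.k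
  ζ₂ := continuousOn_const.mul h.k
  ζy := continuousOn_const.mul (h.r2.inv₀ h0)
  w₁ := continuousOn_const.mul (h.k.mul h.F₁)
  w₂ := continuousOn_const.mul (h.k.mul h.F₂)
  wb := h.En.pow 2
  wc := continuousOn_const

theorem ct_MB (h : NuCt ν U) : (MB ν c).Ct U where
  κ := continuousOn_const
  ζ₁ := continuousOn_const
  ζ₂ := continuousOn_const
  ζy := continuousOn_const.mul (h.En.div (continuousOn_const.add h.m) fun z hz => by
    have h2 := h.m0 z hz
    positivity)
  w₁ := continuousOn_const.mul h.F₁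
  w₂ := continuousOn_const.mul h.F₂
  wb := continuousOn_const.mul (h.En.pow 2)
  wc := continuousOn_const.mul (ct_wB h)

theorem ct_c0 {η : ℝ} (h : NuCt ν U) (hs : ∀ z ∈ U, 0 ≤ s * ν.N z) (hZ : ContinuousOn Z U) :
    (c0 ν C s Z η).Ct U := by
  have hx : ContinuousOn (fun z => ν.En z + s * ν.N z) U := h.En.add (continuousOn_const.mul h.N)
  have hr : ContinuousOn (fun z => (ν.En z + s * ν.N z) / (1 + (ν.En z + s * ν.N z))) U :=
    hx.div (continuousOn_const.add hx) fun z hz => by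
      have h1 := h.E0 z hz
      have h2 := hs z hz
      positivity
  have h1 : ContinuousOn (fun z => C * (η *
      ((ν.En z + s * ν.N z) / (1 + (ν.En z + s * ν.N z)) * Z z))) U :=
    continuousOn_const.mul (continuousOn_const.mul (hr.mul hZ))
  have h2 : ContinuousOn (fun z => C * ((1 / η * (ν.K z + (ν.En z + s * ν.N z)) +
      η * ν.N z ^ 2 * ((ν.En z + s * ν.N z) / (1 + (ν.En z + s * ν.N z)))) * Z z)) U :=
    continuousOn_const.mul (((continuousOn_const.mul (h.K.add hx)).add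
      ((continuousOn_const.mul (h.N.pow 2)).mul hr)).mul hZ)
  exact ⟨continuousOn_const, h1, h1, continuousOn_const, h2, h2, continuousOn_const,
    continuousOn_const⟩

theorem ct_cI (h : NuCt ν U) (hZq : ContinuousOn Zq U) (hZp : ContinuousOn Zp U) :
    (cI ν C Zq Zp).Ct U where
  κ := continuousOn_const
  ζ₁ := continuousOn_const
  ζ₂ := continuousOn_const
  ζy := continuousOn_const
  w₁ := continuousOn_const
  w₂ := continuousOn_const
  wb := continuousOn_const.mul (h.En.mul hZq)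
  wc := continuousOn_const.mul ((h.En.mul hZp).add hZq)

theorem ct_uf (h : NuCt ν U) (h0 : ∀ z ∈ U, ν.r2 z ≠ 0) : (uf ν).Ct U where
  κ := continuousOn_const
  ζ₁ := continuousOn_const
  ζ₂ := continuousOn_const
  ζy := h.r2.inv₀ h0
  w₁ := h.F₁
  w₂ := h.F₂
  wb := h.En.pow 2
  wc := continuousOn_const

/-- The margin of zone II with the cut-off: the support does not meet the diagonal. -/
theorem ct_sMII (hU : IsOpen U) (h : NuCt ν U) (hf : ContinuousOn f U)
    (h0 : ∀ z ∈ U, z ∈ tsupport f → ν.r2 z ≠ 0) : (Q8.sm (fun z => f z ^ 2) (MII ν)).Ct U := by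
  have hΩ : IsOpen (U ∩ ν.r2 ⁻¹' {0}ᶜ) := h.r2.isOpen_inter_preimage hU isOpen_compl_singleton
  exact Q8.Ct.supp2 hU hΩ hf (ct_MII (h.mono inter_subset_left) fun z hz => hz.2)
    fun z hz => ⟨hz.1, h0 z hz.1 hz.2⟩

/-- The cost of zone II: the support of `Z` does not meet the diagonal. -/
theorem ct_cII (hU : IsOpen U) (h : NuCt ν U) (hZ : ContinuousOn Z U)
    (h0 : ∀ z ∈ U, z ∈ tsupport Z → ν.r2 z ≠ 0) : (cII ν C Z).Ct U := by
  have hΩ : IsOpen (U ∩ ν.r2 ⁻¹' {0}ᶜ) := h.r2.isOpen_inter_preimage hU isOpen_compl_singleton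
  refine Q8.Ct.supp hU hΩ (continuousOn_const.mul hZ) (ct_uf (h.mono inter_subset_left)
    fun z hz => hz.2) fun z hz => ⟨hz.1, h0 z hz.1 (supp_of (fun w hw => ?_) hz.2)⟩
  rw [image_eq_zero_of_notMem_tsupport hw, mul_zero]

theorem ct_uB (h : NuCt ν U) : (uB ν).Ct U where
  κ := continuousOn_const
  ζ₁ := continuousOn_const
  ζ₂ := continuousOn_const
  ζy := h.En.div (continuousOn_const.add h.m) fun z hz => by
    have h2 := h.m0 z hz
    positivity
  w₁ := h.F₁
  w₂ := h.F₂
  wb := h.En.pow 2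
  wc := ct_wB h

/-- The cost of the core (regular on the diagonal). -/
theorem ct_cB (h : NuCt ν U) (hZ : ContinuousOn Z U) (hZq : ContinuousOn Zq U) :
    (cB ν C Z Zq).Ct U := by
  refine Q8.Ct.add (H338.E.ct_sm (continuousOn_const.mul hZ) (ct_uB h)) ?_
  exact ⟨continuousOn_const.mul hZq, continuousOn_const, continuousOn_const, continuousOn_const,
    continuousOn_const, continuousOn_const, continuousOn_const, continuousOn_const⟩

end tab

/-! ### Zone A, tubes, passes -/

section slots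

variable {σ τ : Sl E ι} {θ : E → ℝ} {W m χ : E → ℝ} {κ₀ η c C N : ℝ}

/-- `σ.F W = |D W|²` in the metric of the slot. -/
theorem s_F (ok : σ.Ok U θ) (hW : Sm U W) : Sm U (σ.F W) := ok.sG hW hW

theorem s_D2 (ok : σ.Ok U θ) (hW : Sm U W) : Sm U fun z => ∑ i, σ.D i W z ^ 2 :=
  Sm.sum _ fun i _ => (ok.sD hW i).pow 2

theorem ct_MA (ok : σ.Ok U θ) (ot : τ.Ok U θ) (hW : Sm U W) (hm : ContinuousOn m U) :
    (MA σ τ W m κ₀).Ct U where
  κ := continuousOn_const
  ζ₁ := hm
  ζ₂ := hm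
  ζy := continuousOn_const
  w₁ := continuousOn_const.mul (hm.mul (s_F ok hW).continuousOn)
  w₂ := continuousOn_const.mul (hm.mul (s_F ot hW).continuousOn)
  wb := continuousOn_const
  wc := continuousOn_const

theorem D_supp (σ : Sl E ι) (χ : E → ℝ) (i : ι) : tsupport (σ.D i χ) ⊆ tsupport χ := by
  refine supp_of fun z hz => ?_
  have : χ =ᶠ[𝓝 z] fun _ => (0 : ℝ) := by
    filter_upwards [(isClosed_tsupport χ).isOpen_compl.mem_nhds hz] with w hw
    exact image_eq_zero_of_notMem_tsupport hw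
  rw [D_congr_nhds σ this i, D_const]

theorem D2_supp (σ : Sl E ι) (χ : E → ℝ) : tsupport (fun z => ∑ i, σ.D i χ z ^ 2) ⊆ tsupport χ := by
  refine supp_of fun z hz => Finset.sum_eq_zero fun i _ => ?_
  rw [image_eq_zero_of_notMem_tsupport fun h => hz (D_supp σ χ i h)]
  norm_num

theorem G_supp (σ : Sl E ι) (χ : E → ℝ) : tsupport (σ.Γ χ χ) ⊆ tsupport χ := by
  refine supp_of fun z hz => Finset.sum_eq_zero fun i _ => Finset.sum_eq_zero fun j _ => ?_
  rw [image_eq_zero_of_notMem_tsupport fun h => hz (D_supp σ χ i h)]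
  ring

theorem c_rh (hm : ContinuousOn m U) (h0 : ∀ z ∈ U, 0 ≤ m z) : ContinuousOn (rh m) U := by
  refine hm.div (continuousOn_const.add hm) fun z hz => ?_
  have := h0 z hz
  positivity

/-- **The cost of zone A**: `m` is continuous and nonnegative only on `Ω`, the support of the
cut-off lies in `Ω`. -/
theorem ct_coA (ok : σ.Ok U θ) (ot : τ.Ok U θ) (hW : Sm U W) (hχ : Sm U χ) (hΩ : IsOpen Ω)
    (hm : ContinuousOn m Ω) (h0 : ∀ z ∈ Ω, 0 ≤ m z) (hs : U ∩ tsupport χ ⊆ Ω) :
    (coA σ τ W m χ η).Ct U := by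
  have hU := ok.op
  have a1 : ∀ {f : E → ℝ}, ContinuousOn f U → tsupport f ⊆ tsupport χ →
      ContinuousOn (fun z => m z * f z) U := by
    intro f hf hf'
    refine (c_supp hU hΩ hf hm fun z hz => hs ⟨hz.1, hf' hz.2⟩).congr fun z _ => ?_
    exact mul_comm _ _
  have a2 : ∀ {f : E → ℝ}, ContinuousOn f U → tsupport f ⊆ tsupport χ →
      ContinuousOn (fun z => rh m z * f z) U := by
    intro f hf hf'
    refine (c_supp hU hΩ hf (c_rh hm h0) fun z hz => hs ⟨hz.1, hf' hz.2⟩).congr fun z _ => ?_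
    exact mul_comm _ _
  have b1 : ∀ {σ : Sl E ι}, σ.Ok U θ → ContinuousOn (fun z => 3 / η * (m z * σ.Γ χ χ z) +
      144 * η * (rh m z * (∑ i, σ.D i χ z ^ 2) * ∑ i, σ.D i W z ^ 2)) U := fun ok =>
    (continuousOn_const.mul (a1 (ok.sG hχ hχ).continuousOn (G_supp _ χ))).add
      (continuousOn_const.mul ((a2 (s_D2 ok hχ).continuousOn (D2_supp _ χ)).mul
        (s_D2 ok hW).continuousOn))
  have b2 : ∀ {σ : Sl E ι}, σ.Ok U θ → ContinuousOn (fun z => 32 * η *
      (rh m z * ∑ i, σ.D i χ z ^ 2)) U := fun ok =>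
    continuousOn_const.mul (a2 (s_D2 ok hχ).continuousOn (D2_supp _ χ))
  exact ⟨continuousOn_const, b2 ok, b2 ot, continuousOn_const, b1 ok, b1 ot, continuousOn_const,
    continuousOn_const⟩

theorem ct_MT1 {c : ℝ} {N : E → ℝ} (hN : ContinuousOn N U) : (MT1 c N : Q8 E).Ct U :=
  ⟨continuousOn_const, continuousOn_const.mul hN, continuousOn_const.mul hN, continuousOn_const,
    continuousOn_const.mul (hN.pow 2), continuousOn_const.mul (hN.pow 3), continuousOn_const,
    continuousOn_const⟩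

theorem ct_MT2 {c : ℝ} {N : E → ℝ} (hN : ContinuousOn N U) : (MT2 c N : Q8 E).Ct U :=
  ⟨continuousOn_const, continuousOn_const.mul hN, continuousOn_const.mul hN, continuousOn_const,
    continuousOn_const.mul (hN.pow 3), continuousOn_const.mul (hN.pow 2), continuousOn_const,
    continuousOn_const⟩

theorem c_sqrt {N : E → ℝ} (hN : ContinuousOn N U) : ContinuousOn (fun z => √(N z)) U :=
  Real.continuous_sqrt.comp_continuousOn hN

theorem c_dsqrt {C : ℝ} {N : E → ℝ} (hN : ContinuousOn N U) (h0 : ∀ z ∈ U, 0 < N z) :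
    ContinuousOn (fun z => C / √(N z)) U :=
  continuousOn_const.div (c_sqrt hN) fun z hz => (Real.sqrt_pos.2 (h0 z hz)).ne'

theorem ct_coT1 {C : ℝ} {N et : E → ℝ} (hN : ContinuousOn N U) (h0 : ∀ z ∈ U, 0 < N z)
    (h : ContinuousOn et U) : (coT1 C N et).Ct U :=
  ⟨(h.pow 2).mul (c_dsqrt hN h0), (h.pow 2).mul (continuousOn_const.mul (c_sqrt hN)),
    (h.pow 2).mul (continuousOn_const.mul (c_sqrt hN)), continuousOn_const,
    (h.pow 2).mul ((continuousOn_const.mul hN).mul (c_sqrt hN)),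
    (h.pow 2).mul ((continuousOn_const.mul (hN.pow 2)).mul (c_sqrt hN)), continuousOn_const,
    continuousOn_const⟩

theorem ct_coT2 {C : ℝ} {N et : E → ℝ} (hN : ContinuousOn N U) (h0 : ∀ z ∈ U, 0 < N z)
    (h : ContinuousOn et U) : (coT2 C N et).Ct U :=
  ⟨(h.pow 2).mul (c_dsqrt hN h0), (h.pow 2).mul (continuousOn_const.mul (c_sqrt hN)),
    (h.pow 2).mul (continuousOn_const.mul (c_sqrt hN)), continuousOn_const,
    (h.pow 2).mul ((continuousOn_const.mul (hN.pow 2)).mul (c_sqrt hN)),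
    (h.pow 2).mul ((continuousOn_const.mul hN).mul (c_sqrt hN)), continuousOn_const,
    continuousOn_const⟩

theorem ct_MP {K G : E → ℝ} {k c : ℝ} (hK : ContinuousOn K U) (hG : ContinuousOn G U) :
    (H710.E.MP K G k c).Ct U :=
  ⟨continuousOn_const, continuousOn_const.mul hK, continuousOn_const.mul hG, continuousOn_const,
    continuousOn_const.mul (hK.pow 2), continuousOn_const.mul (hG.pow 3), continuousOn_const,
    continuousOn_const⟩

end slots

end Vale.Agent.P088.R2.H341.EP
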